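import Vale.Agent.P141.Final

namespace Vale.Agent.Results.P141.Unbounded

open Vale.Agent.P141
open scoped ENNReal

/-- The trilinear Hilbert transform with slopes 1, 2, 3 is unbounded at every Holder tuple
with `r ≤ 7/15`. -/
theorem result (p₁ p₂ p₃ r : ℝ≥0∞) (h₁ : 1 < p₁) (h₂ : 1 < p₂) (h₃ : 1 < p₃) (hr0 : 0 < r)
    (hH : r⁻¹ = p₁⁻¹ + p₂⁻¹ + p₃⁻¹) (hr : r ≤ 7 / 15) : ¬ BoundedAt p₁ p₂ p₃ r :=
  final p₁ p₂ p₃ r h₁ h₂ h₃ hr0 hH hr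

end Vale.Agent.Results.P141.Unbounded
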